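import Mathlib

namespace Vale.Agent.Results.P007.SubfieldObstruction

open Matrix

/-- The lattice `ℤⁿ g` spanned over `ℤ` by the rows of the matrix `g`. -/
def rowLattice {n : ℕ} (g : Matrix (Fin n) (Fin n) ℝ) : Set (Fin n → ℝ) :=
  (Submodule.span ℤ (Set.range fun k : Fin n => g k) : Set (Fin n → ℝ))

/-- The set `σ(I) · diag(t)`: the image of the additive subgroup `I` of `K` under
`x ↦ (σ₁(x) t₁, …, σₙ(x) tₙ)`. -/
def embLattice {n : ℕ} {K : Type} [Field K] (σ : Fin n → (K →+* ℝ)) (I : AddSubgroup K)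
    (t : Fin n → ℝ) : Set (Fin n → ℝ) :=
  {v | ∃ x ∈ I, ∀ j, v j = σ j x * t j}

/-- The entrywise `δ`-neighbourhood of the identity matrix. -/
def nbhd (n : ℕ) (δ : ℝ) : Set (Matrix (Fin n) (Fin n) ℝ) :=
  {g | ∀ i j, |g i j - (1 : Matrix (Fin n) (Fin n) ℝ) i j| < δ}

theorem nbhd_open (n : ℕ) (δ : ℝ) : IsOpen (nbhd n δ) := by
  have h : nbhd n δ = ⋂ i : Fin n, ⋂ j : Fin n,
      {g : Matrix (Fin n) (Fin n) ℝ | |g i j - (1 : Matrix (Fin n) (Fin n) ℝ) i j| < δ} := by
    ext g
    simp [nbhd]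
  rw [h]
  apply isOpen_iInter_of_finite
  intro i
  apply isOpen_iInter_of_finite
  intro j
  apply isOpen_lt _ continuous_const
  exact ((continuous_id.matrix_elem i j).sub continuous_const).abs

theorem one_mem_nbhd (n : ℕ) (δ : ℝ) (hδ : 0 < δ) : (1 : Matrix (Fin n) (Fin n) ℝ) ∈ nbhd n δ := by
  intro i j
  simpa using hδ

/-- The analytic core: if `g` is entrywise `1 / (4 n ρ)`-close to the identity and row `i0` of
`g D` is an integer combination of the rows of `g`, where `D = diag(d)` with `|d j| ≤ ρ`, then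
`d i0` is an integer. -/
theorem key {n : ℕ} (hn : 0 < n) (ρ : ℝ) (hρ : 1 ≤ ρ) (g : Matrix (Fin n) (Fin n) ℝ)
    (hg : g ∈ nbhd n (1 / (4 * n * ρ))) (d : Fin n → ℝ) (hd : ∀ j, |d j| ≤ ρ) (c : Fin n → ℤ)
    (i0 : Fin n) (h : ∀ j, ∑ l, (c l : ℝ) * g l j = d j * g i0 j) : (c i0 : ℝ) = d i0 := by
  have hnR : (1 : ℝ) ≤ (n : ℝ) := by exact_mod_cast hn
  set δ : ℝ := 1 / (4 * n * ρ) with hδdef
  have hnρ : (0 : ℝ) < 4 * n * ρ := by positivity
  have hδpos : 0 < δ := by positivity
  have hnδ : (n : ℝ) * δ * ρ = 1 / 4 := by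
    rw [hδdef]; field_simp
  have hδ4 : δ ≤ 1 / 4 := by
    rw [hδdef, div_le_div_iff₀ hnρ (by norm_num)]
    nlinarith
  have hgd : ∀ j, 1 - δ ≤ g j j ∧ g j j ≤ 1 + δ := by
    intro j
    have := hg j j
    rw [Matrix.one_apply_eq, abs_lt] at this
    constructor <;> linarith [this.1, this.2]
  have hgo : ∀ l j, l ≠ j → |g l j| ≤ δ := by
    intro l j hlj
    have := hg l j
    rw [Matrix.one_apply_ne hlj, sub_zero] at this
    exact this.le
  have hgrow : ∀ j, |g i0 j| ≤ (if j = i0 then 1 else 0) + δ := by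
    intro j
    by_cases hj : j = i0
    · subst hj
      rw [if_pos rfl, abs_le]
      constructor <;> linarith [(hgd j).1, (hgd j).2]
    · rw [if_neg hj, zero_add]
      exact hgo i0 j (Ne.symm hj)
  set S : ℝ := ∑ l, |(c l : ℝ)| with hS
  have hSnn : 0 ≤ S := Finset.sum_nonneg (fun l _ => abs_nonneg _)
  have hmain : ∀ j, |(c j : ℝ)| ≤ ρ * |g i0 j| + δ * S := by
    intro j
    have e1 : (c j : ℝ) * g j j = d j * g i0 j - ∑ l ∈ Finset.univ.erase j, (c l : ℝ) * g l j := by
      have := h j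
      rw [← Finset.add_sum_erase _ _ (Finset.mem_univ j)] at this
      linarith
    have e2 : |(c j : ℝ) * g j j| ≤ |d j * g i0 j| + |∑ l ∈ Finset.univ.erase j, (c l : ℝ) * g l j| := by
      rw [e1]
      exact abs_sub _ _
    have e3 : |∑ l ∈ Finset.univ.erase j, (c l : ℝ) * g l j| ≤
        ∑ l ∈ Finset.univ.erase j, |(c l : ℝ)| * δ := by
      refine le_trans (Finset.abs_sum_le_sum_abs _ _) ?_
      apply Finset.sum_le_sum
      intro l hl
      rw [abs_mul]
      exact mul_le_mul_of_nonneg_left (hgo l j (Finset.ne_of_mem_erase hl)) (abs_nonneg _)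
    have e4 : ∑ l ∈ Finset.univ.erase j, |(c l : ℝ)| * δ = (S - |(c j : ℝ)|) * δ := by
      rw [← Finset.sum_mul, hS, ← Finset.add_sum_erase _ _ (Finset.mem_univ j)]
      ring
    have e5 : |d j * g i0 j| ≤ ρ * |g i0 j| := by
      rw [abs_mul]
      exact mul_le_mul_of_nonneg_right (hd j) (abs_nonneg _)
    have e6 : (1 - δ) * |(c j : ℝ)| ≤ |(c j : ℝ) * g j j| := by
      rw [abs_mul, mul_comm]
      apply mul_le_mul_of_nonneg_left _ (abs_nonneg _)
      rw [abs_of_pos (by linarith [(hgd j).1])]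
      exact (hgd j).1
    nlinarith
  have hrow : ∑ j, |g i0 j| ≤ 1 + n * δ := by
    calc ∑ j, |g i0 j| ≤ ∑ j : Fin n, ((if j = i0 then (1 : ℝ) else 0) + δ) :=
          Finset.sum_le_sum (fun j _ => hgrow j)
      _ = 1 + n * δ := by
          rw [Finset.sum_add_distrib, Finset.sum_ite_eq' Finset.univ i0]
          simp
  have hSle : S ≤ 5 / 3 * ρ := by
    have h1 : S ≤ ∑ j : Fin n, (ρ * |g i0 j| + δ * S) := Finset.sum_le_sum (fun j _ => hmain j)
    rw [Finset.sum_add_distrib, ← Finset.mul_sum] at h1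
    simp only [Finset.sum_const, Finset.card_univ, Fintype.card_fin, nsmul_eq_mul] at h1
    have h2 : ρ * ∑ j, |g i0 j| ≤ ρ * (1 + n * δ) :=
      mul_le_mul_of_nonneg_left hrow (by linarith)
    have h3 : (n : ℝ) * (δ * S) ≤ 1 / 4 * S := by
      have : (n : ℝ) * δ ≤ 1 / 4 := by nlinarith
      nlinarith
    nlinarith
  have hzero : ∀ j, j ≠ i0 → c j = 0 := by
    intro j hj
    have h1 := hmain j
    have h2 := hgo i0 j (Ne.symm hj)
    have h3 : |(c j : ℝ)| < 1 := by
      have h4 : ρ * |g i0 j| ≤ ρ * δ := mul_le_mul_of_nonneg_left h2 (by linarith)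
      have h5 : δ * S ≤ δ * (5 / 3 * ρ) := mul_le_mul_of_nonneg_left hSle hδpos.le
      have h6 : δ * ρ ≤ 1 / 4 := by nlinarith
      nlinarith
    have h4 : |c j| < 1 := by exact_mod_cast h3
    exact Int.abs_lt_one_iff.mp h4
  have h0 := h i0
  rw [← Finset.add_sum_erase _ _ (Finset.mem_univ i0)] at h0
  have hrest : ∑ l ∈ Finset.univ.erase i0, (c l : ℝ) * g l i0 = 0 := by
    apply Finset.sum_eq_zero
    intro l hl
    rw [hzero l (Finset.ne_of_mem_erase hl)]
    simp
  rw [hrest, add_zero] at h0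
  have hg0 : g i0 i0 ≠ 0 := by linarith [(hgd i0).1]
  exact mul_right_cancel₀ hg0 h0

/-- The obstruction: no matrix near the identity has rows spanning a lattice `σ(I) · diag(t)`
when `I` is stable under multiplication by an element `s` none of whose images `σ j s` is an
integer. -/
theorem core {n : ℕ} (hn : 0 < n) (ρ : ℝ) (hρ : 1 ≤ ρ) {K : Type} [Field K] (s : K)
    (σ : Fin n → (K →+* ℝ)) (hb : ∀ j, |σ j s| ≤ ρ) (hint : ∀ j, ∀ m : ℤ, σ j s ≠ (m : ℝ))
    (I : AddSubgroup K) (hI : ∀ x ∈ I, s * x ∈ I) (t : Fin n → ℝ)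
    (g : Matrix (Fin n) (Fin n) ℝ) (hg : g ∈ nbhd n (1 / (4 * n * ρ))) :
    rowLattice g ≠ embLattice σ I t := by
  intro heq
  let i0 : Fin n := ⟨0, hn⟩
  have h0 : (fun j => g i0 j) ∈ rowLattice g := Submodule.subset_span ⟨i0, rfl⟩
  rw [heq] at h0
  obtain ⟨b, hbI, hbj⟩ := h0
  have h1 : (fun j => σ j (s * b) * t j) ∈ embLattice σ I t := ⟨s * b, hI b hbI, fun j => rfl⟩
  rw [← heq] at h1
  obtain ⟨c, hc⟩ := (Submodule.mem_span_range_iff_exists_fun ℤ).mp h1
  have hkey := key hn ρ hρ g hg (fun j => σ j s) hb c i0 (by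
    intro j
    have hj : ∑ l, (c l : ℝ) * g l j = σ j (s * b) * t j := by
      have := congrFun hc j
      rw [Finset.sum_apply] at this
      rw [← this]
      apply Finset.sum_congr rfl
      intro l _
      simp [Pi.smul_apply, zsmul_eq_mul]
    have hb0 : g i0 j = σ j b * t j := hbj j
    rw [hj, map_mul, hb0]
    ring)
  exact hint i0 (c i0) hkey.symm

/-- Packets of fields with a fixed irrational subfield element stay away from a fixed open set.

First part: for every `n ≥ 1` and every bound `R` there is an open set `U` of real `n × n`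
matrices containing the identity such that, whenever `K` is a field with ring homomorphisms
`σ₁, …, σₙ : K → ℝ`, `s ∈ K` has all `σ j s` non-integers of absolute value at most `R`, and `I` is
an additive subgroup of `K` stable under multiplication by `s`, no `g ∈ U` has
`ℤⁿ g = σ(I) · diag(t)`, for any scaling vector `t`.

Second part (the case `n = 4`, `s = √2`): for a totally real quartic number field `K` containing
a square root of `2`, any ordering `σ` of its real embeddings and any fractional ideal `I` of its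
ring of integers, no `g ∈ U` has `ℤ⁴ g = σ(I) · diag(c w₁ e^{u₁}, …, c w₄ e^{u₄})`. -/
theorem result :
    (∀ (n : ℕ) (R : ℝ), 0 < n →
      ∃ U : Set (Matrix (Fin n) (Fin n) ℝ), IsOpen U ∧ (1 : Matrix (Fin n) (Fin n) ℝ) ∈ U ∧
        ∀ (K : Type) [Field K] (s : K) (σ : Fin n → (K →+* ℝ)),
          (∀ j, |σ j s| ≤ R) → (∀ j, ∀ m : ℤ, σ j s ≠ (m : ℝ)) →
          ∀ (I : AddSubgroup K), (∀ x ∈ I, s * x ∈ I) → ∀ (t : Fin n → ℝ),
          ∀ g ∈ U, rowLattice g ≠ embLattice σ I t) ∧
    (∃ U : Set (Matrix (Fin 4) (Fin 4) ℝ), IsOpen U ∧ (1 : Matrix (Fin 4) (Fin 4) ℝ) ∈ U ∧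
        ∀ (K : Type) [Field K] [NumberField K], NumberField.IsTotallyReal K →
          Module.finrank ℚ K = 4 → ∀ s : K, s * s = 2 →
          ∀ (σ : Fin 4 → (K →+* ℝ)), Function.Injective σ →
          ∀ (I : FractionalIdeal (nonZeroDivisors (NumberField.RingOfIntegers K)) K)
            (c : ℝ) (w u : Fin 4 → ℝ), (∀ j, w j = 1 ∨ w j = -1) →
          ∀ g ∈ U, rowLattice g ≠
            embLattice σ (I : Submodule (NumberField.RingOfIntegers K) K).toAddSubgroup
              (fun j => c * w j * Real.exp (u j))) := by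
  constructor
  · intro n R hn
    have hρ : (1 : ℝ) ≤ |R| + 1 := by linarith [abs_nonneg R]
    have hnR : (0 : ℝ) < (n : ℝ) := by exact_mod_cast hn
    refine ⟨nbhd n (1 / (4 * n * (|R| + 1))), nbhd_open _ _, one_mem_nbhd _ _ (by positivity), ?_⟩
    intro K _ s σ hb hint I hI t g hg
    exact core hn (|R| + 1) hρ s σ (fun j => le_trans (hb j) (by linarith [le_abs_self R]))
      hint I hI t g hg
  · refine ⟨nbhd 4 (1 / (4 * (4 : ℕ) * (3 / 2))), nbhd_open _ _, one_mem_nbhd _ _ (by norm_num), ?_⟩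
    intro K _ _ _ _ s hs σ _ I c w u _ g hg
    have hsq : ∀ j, σ j s * σ j s = 2 := by
      intro j
      rw [← map_mul, hs, map_ofNat]
    refine core (by norm_num) (3 / 2) (by norm_num) s σ ?_ ?_ _ ?_ _ g hg
    · intro j
      rw [abs_le]
      constructor <;> nlinarith [hsq j]
    · intro j m hm
      have h2 : (m : ℝ) * (m : ℝ) = 2 := by rw [← hm]; exact hsq j
      have h3 : m * m = 2 := by exact_mod_cast h2
      have hb : |m| ≤ 1 ∨ 2 ≤ |m| := by omega
      rcases hb with hb | hb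
      · have : m * m ≤ 1 := by
          have h1 := abs_le.mp hb
          nlinarith [h1.1, h1.2]
        omega
      · have : 4 ≤ m * m := by
          rcases le_abs'.mp hb with h1 | h1 <;> nlinarith
        omega
    · intro x hx
      have hsint : IsIntegral ℤ s := by
        apply IsIntegral.of_pow (n := 2) (by norm_num)
        rw [pow_two, hs]
        have h2 : (2 : K) = algebraMap ℤ K 2 := by simp
        rw [h2]
        exact isIntegral_algebraMap
      have hmem : (⟨s, hsint⟩ : NumberField.RingOfIntegers K) • x ∈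
          (I : Submodule (NumberField.RingOfIntegers K) K) :=
        Submodule.smul_mem _ _ hx
      exact hmem

end Vale.Agent.Results.P007.SubfieldObstruction
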