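import Mathlib
import Vale.Agent.Results.P007.SubfieldObstruction

namespace Vale.Agent.Results.P007.QuarticOrders

open Polynomial NumberField
open Vale.Agent.Results.P007.SubfieldObstruction

/-- The integer polynomial `X^4 - 4 X^2 + 2`. -/
noncomputable def quarticZ : ℤ[X] := X ^ 4 - (C 4 * X ^ 2 - C 2)

theorem quarticZ_natDegree : quarticZ.natDegree = 4 := by
  unfold quarticZ
  compute_degree!

theorem quarticZ_monic : quarticZ.Monic := by
  unfold quarticZ
  apply monic_X_pow_sub
  have h : degree (C (4:ℤ) * X ^ 2 - C 2) ≤ 2 := by compute_degree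
  exact lt_of_le_of_lt h (by norm_num)

theorem quarticZ_coeff (n : ℕ) : quarticZ.coeff n =
    if n = 4 then 1 else if n = 2 then -4 else if n = 0 then 2 else 0 := by
  unfold quarticZ
  simp only [coeff_sub, coeff_X_pow, coeff_C_mul, coeff_C]
  split_ifs <;> simp_all

theorem quarticZ_irreducible : Irreducible quarticZ := by
  have hP : (Ideal.span {(2 : ℤ)}).IsPrime :=
    (Ideal.span_singleton_prime (by norm_num)).mpr Int.prime_two
  apply irreducible_of_eisenstein_criterion hP
  · rw [quarticZ_monic.leadingCoeff, Ideal.mem_span_singleton]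
    norm_num
  · intro n hn
    rw [degree_eq_natDegree quarticZ_monic.ne_zero, quarticZ_natDegree] at hn
    have hn4 : n < 4 := by exact_mod_cast hn
    rw [quarticZ_coeff, Ideal.mem_span_singleton]
    interval_cases n <;> norm_num
  · rw [degree_eq_natDegree quarticZ_monic.ne_zero, quarticZ_natDegree]
    norm_num
  · rw [quarticZ_coeff, Ideal.span_singleton_pow, Ideal.mem_span_singleton]
    norm_num
  · exact quarticZ_monic.isPrimitive

/-- The rational polynomial `X^4 - 4 X^2 + 2`. -/
noncomputable def quartic : ℚ[X] := quarticZ.map (Int.castRingHom ℚ)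

theorem quartic_irreducible : Irreducible quartic :=
  (IsPrimitive.Int.irreducible_iff_irreducible_map_cast quarticZ_monic.isPrimitive).mp
    quarticZ_irreducible

theorem quartic_monic : quartic.Monic := quarticZ_monic.map _

theorem quartic_natDegree : quartic.natDegree = 4 := by
  unfold quartic
  rw [quarticZ_monic.natDegree_map, quarticZ_natDegree]

theorem quartic_eq : quartic = X ^ 4 - (C 4 * X ^ 2 - C 2) := by
  unfold quartic quarticZ
  simp only [Polynomial.map_sub, Polynomial.map_mul, Polynomial.map_pow, Polynomial.map_X,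
    Polynomial.map_C]
  rfl

/-- A complex number whose square is a nonnegative real is real. -/
theorem conj_eq_of_sq (z : ℂ) (r : ℝ) (hr : 0 ≤ r) (h : z ^ 2 = (r : ℂ)) :
    (starRingEnd ℂ) z = z := by
  have h1 : (z - (Real.sqrt r : ℂ)) * (z + (Real.sqrt r : ℂ)) = 0 := by
    have h2 : ((Real.sqrt r : ℝ) : ℂ) ^ 2 = (r : ℂ) := by
      rw [← Complex.ofReal_pow, Real.sq_sqrt hr]
    linear_combination h - h2
  rcases mul_eq_zero.mp h1 with h3 | h3
  · have : z = (Real.sqrt r : ℂ) := by linear_combination h3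
    rw [this, Complex.conj_ofReal]
  · have : z = ((-Real.sqrt r : ℝ) : ℂ) := by
      push_cast
      linear_combination h3
    rw [this, Complex.conj_ofReal]

/-- Every complex root of `X^4 - 4 X^2 + 2` is real. -/
theorem root_real (z : ℂ) (h : z ^ 4 - (4 * z ^ 2 - 2) = 0) : (starRingEnd ℂ) z = z := by
  have hw : (z ^ 2 - 2) ^ 2 = ((2 : ℝ) : ℂ) := by
    push_cast
    linear_combination h
  have hwc := conj_eq_of_sq (z ^ 2 - 2) 2 (by norm_num) hw
  obtain ⟨a, ha⟩ := Complex.conj_eq_iff_real.mp hwc
  have ha2 : a ^ 2 = 2 := by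
    have : ((a ^ 2 : ℝ) : ℂ) = ((2 : ℝ) : ℂ) := by
      rw [← hw, ha]; push_cast; ring
    exact_mod_cast this
  have hz : z ^ 2 = ((2 + a : ℝ) : ℂ) := by
    push_cast
    linear_combination ha
  exact conj_eq_of_sq z (2 + a) (by nlinarith) hz

theorem theta_eq :
    (AdjoinRoot.root quartic) ^ 4 - (4 * (AdjoinRoot.root quartic) ^ 2 - 2) = 0 := by
  have h : Polynomial.eval₂ (AdjoinRoot.of quartic) (AdjoinRoot.root quartic)
      (X ^ 4 - (C 4 * X ^ 2 - C 2)) = 0 := by
    rw [← quartic_eq]
    exact AdjoinRoot.eval₂_root quartic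
  simp only [eval₂_sub, eval₂_mul, eval₂_pow, eval₂_X, eval₂_C] at h
  have h4 : (AdjoinRoot.of quartic) 4 = 4 := map_ofNat _ 4
  have h2 : (AdjoinRoot.of quartic) 2 = 2 := map_ofNat _ 2
  rw [h4, h2] at h
  exact h

theorem numberField [Fact (Irreducible quartic)] : NumberField (AdjoinRoot quartic) := by
  have : Module.Finite ℚ (AdjoinRoot quartic) := quartic_monic.finite_adjoinRoot
  have : CharZero (AdjoinRoot quartic) :=
    charZero_of_injective_algebraMap (algebraMap ℚ (AdjoinRoot quartic)).injective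
  exact {}

theorem finrank_eq [Fact (Irreducible quartic)] : Module.finrank ℚ (AdjoinRoot quartic) = 4 := by
  rw [(AdjoinRoot.powerBasis quartic_monic.ne_zero).finrank, AdjoinRoot.powerBasis_dim,
    quartic_natDegree]

theorem totallyReal [Fact (Irreducible quartic)] : IsTotallyReal (AdjoinRoot quartic) := by
  refine ⟨fun v => ?_⟩
  rw [InfinitePlace.isReal_iff, ComplexEmbedding.isReal_iff]
  have hroot : (starRingEnd ℂ) (v.embedding (AdjoinRoot.root quartic)) =
      v.embedding (AdjoinRoot.root quartic) := by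
    apply root_real
    have h := congrArg v.embedding theta_eq
    rw [map_sub, map_sub, map_mul, map_pow, map_pow, map_zero] at h
    have h4 : v.embedding 4 = 4 := map_ofNat _ 4
    have h2 : v.embedding 2 = 2 := map_ofNat _ 2
    rw [h4, h2] at h
    exact h
  ext
  · exact RingHom.congr_fun (RingHom.ext_rat _ _) _
  · exact hroot

/-- The subring `ℤ[s] + m 𝓞 K` of the ring of integers, for `s` with `s * s = 2`. -/
def sqrtOrder {K : Type} [Field K] (s : 𝓞 K) (hs : s * s = 2) (m : ℤ) : Subring (𝓞 K) where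
  carrier := {x | ∃ a b : ℤ, ∃ y : 𝓞 K, x = a + b * s + m * y}
  mul_mem' := by
    rintro x x' ⟨a, b, y, rfl⟩ ⟨a', b', y', rfl⟩
    refine ⟨a * a' + 2 * b * b', a * b' + a' * b,
      a * y' + b * s * y' + y * a' + y * b' * s + m * y * y', ?_⟩
    push_cast
    linear_combination (b * b' : 𝓞 K) * hs
  one_mem' := ⟨1, 0, 0, by simp⟩
  add_mem' := by
    rintro x x' ⟨a, b, y, rfl⟩ ⟨a', b', y', rfl⟩
    exact ⟨a + a', b + b', y + y', by push_cast; ring⟩
  zero_mem' := ⟨0, 0, 0, by simp⟩
  neg_mem' := by
    rintro x ⟨a, b, y, rfl⟩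
    exact ⟨-a, -b, -y, by push_cast; ring⟩

theorem index_large {K : Type} [Field K] [NumberField K] (hK : Module.finrank ℚ K = 4)
    (s : 𝓞 K) (hs : s * s = 2) (N : ℕ) :
    ∃ O : Subring (𝓞 K), s ∈ O ∧ N < O.toAddSubgroup.index := by
  set m : ℕ := N + 1 with hm
  refine ⟨sqrtOrder s hs m, ⟨0, 1, 0, by simp⟩, ?_⟩
  set H : AddSubgroup (𝓞 K) := (sqrtOrder s hs m).toAddSubgroup with hH
  set L : AddSubgroup (𝓞 K) := (Ideal.span {((m : ℕ) : 𝓞 K)}).toAddSubgroup with hL
  have hLH : L ≤ H := by
    intro x hx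
    obtain ⟨y, rfl⟩ := Ideal.mem_span_singleton.mp hx
    exact ⟨0, 0, y, by simp⟩
  have hLidx : L.index = m ^ 4 := by
    rw [hL, ← Ideal.absNorm_eq_index, Ideal.absNorm_span_natCast, RingOfIntegers.rank, hK]
  have hrel : L.relIndex H ≤ m * m := by
    have hmpos : 0 < m := by omega
    let f : Fin m × Fin m → H ⧸ L.addSubgroupOf H := fun p =>
      QuotientAddGroup.mk ⟨((p.1 : ℕ) : 𝓞 K) + ((p.2 : ℕ) : 𝓞 K) * s,
        ⟨(p.1 : ℕ), (p.2 : ℕ), 0, by simp⟩⟩
    have hf : Function.Surjective f := by
      intro q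
      induction q using QuotientAddGroup.induction_on with
      | H z =>
        obtain ⟨x, a, b, y, rfl⟩ := z
        refine ⟨(⟨(a % m).toNat, ?_⟩, ⟨(b % m).toNat, ?_⟩), ?_⟩
        · have := Int.emod_lt_of_pos a (by exact_mod_cast hmpos : (0 : ℤ) < m)
          have := Int.emod_nonneg a (by exact_mod_cast hmpos.ne' : (m : ℤ) ≠ 0)
          omega
        · have := Int.emod_lt_of_pos b (by exact_mod_cast hmpos : (0 : ℤ) < m)
          have := Int.emod_nonneg b (by exact_mod_cast hmpos.ne' : (m : ℤ) ≠ 0)
          omega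
        · simp only [f]
          rw [QuotientAddGroup.eq]
          rw [AddSubgroup.mem_addSubgroupOf]
          simp only [AddSubgroup.coe_add, NegMemClass.coe_neg]
          rw [hL]
          apply Ideal.mem_span_singleton.mpr
          refine ⟨(a / m : ℤ) + (b / m : ℤ) * s + y, ?_⟩
          have ha : ((a % m).toNat : ℤ) = a % m :=
            Int.toNat_of_nonneg (Int.emod_nonneg a (by exact_mod_cast hmpos.ne'))
          have hb : ((b % m).toNat : ℤ) = b % m :=
            Int.toNat_of_nonneg (Int.emod_nonneg b (by exact_mod_cast hmpos.ne'))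
          have ha' : (a : 𝓞 K) = (((a % m).toNat : ℕ) : 𝓞 K) + (m : 𝓞 K) * ((a / m : ℤ) : 𝓞 K) := by
            have : a = ((a % m).toNat : ℤ) + m * (a / m) := by rw [ha]; exact (Int.emod_add_mul_ediv a m).symm
            exact_mod_cast congrArg (Int.cast : ℤ → 𝓞 K) this
          have hb' : (b : 𝓞 K) = (((b % m).toNat : ℕ) : 𝓞 K) + (m : 𝓞 K) * ((b / m : ℤ) : 𝓞 K) := by
            have : b = ((b % m).toNat : ℤ) + m * (b / m) := by rw [hb]; exact (Int.emod_add_mul_ediv b m).symm
            exact_mod_cast congrArg (Int.cast : ℤ → 𝓞 K) this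
          rw [ha', hb']
          push_cast
          ring
    have h1 := Nat.card_le_card_of_surjective f hf
    rw [Nat.card_prod, Nat.card_fin] at h1
    exact h1
  have hmul := AddSubgroup.relIndex_mul_index hLH
  rw [hLidx] at hmul
  by_contra hcon
  have hidx : H.index ≤ N := by omega
  have h2 : L.relIndex H * H.index ≤ (m * m) * N := Nat.mul_le_mul hrel hidx
  have h3 : (m * m) * N < m ^ 4 := by
    have : N < m * m := by nlinarith
    have hm0 : 0 < m * m := by positivity
    calc (m * m) * N < (m * m) * (m * m) := by nlinarith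
      _ = m ^ 4 := by ring
  omega

/-- The case `s * s = 2` of the subfield obstruction, in dimension four. -/
theorem avoid {K : Type} [Field K] (s : K) (hs : s * s = 2) (σ : Fin 4 → (K →+* ℝ))
    (I : AddSubgroup K) (hI : ∀ x ∈ I, s * x ∈ I) (t : Fin 4 → ℝ)
    (g : Matrix (Fin 4) (Fin 4) ℝ) (hg : g ∈ nbhd 4 (1 / (4 * (4 : ℕ) * (3 / 2)))) :
    rowLattice g ≠ embLattice σ I t := by
  have hsq : ∀ j, σ j s * σ j s = 2 := by
    intro j
    rw [← map_mul, hs, map_ofNat]
  refine core (by norm_num) (3 / 2) (by norm_num) s σ ?_ ?_ I hI t g hg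
  · intro j
    rw [abs_le]
    constructor <;> nlinarith [hsq j]
  · intro j m hm
    have h2 : (m : ℝ) * (m : ℝ) = 2 := by rw [← hm]; exact hsq j
    have h3 : m * m = 2 := by exact_mod_cast h2
    have hb : |m| ≤ 1 ∨ 2 ≤ |m| := by omega
    rcases hb with hb | hb
    · have : m * m ≤ 1 := by
        have h1 := abs_le.mp hb
        nlinarith [h1.1, h1.2]
      omega
    · have : 4 ≤ m * m := by
        rcases le_abs'.mp hb with h1 | h1 <;> nlinarith
      omega

/-- An element of a field whose square is `2` gives such an element of the ring of integers. -/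
theorem exists_int_sqrt {K : Type} [Field K] (x : K) (hx : x * x = 2) :
    ∃ s : 𝓞 K, s * s = 2 := by
  have hint : x ∈ integralClosure ℤ K := by
    show IsIntegral ℤ x
    apply IsIntegral.of_pow (n := 2) (by norm_num)
    rw [pow_two, hx]
    have h2 : (2 : K) = algebraMap ℤ K 2 := by simp
    rw [h2]
    exact isIntegral_algebraMap
  obtain ⟨s0, hs0⟩ : ∃ s0 : 𝓞 K, algebraMap (𝓞 K) K s0 = x := ⟨⟨x, hint⟩, rfl⟩
  refine ⟨s0, RingOfIntegers.ext ?_⟩
  rw [RingOfIntegers.coe_eq_algebraMap, map_mul, hs0, RingOfIntegers.coe_eq_algebraMap,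
    map_ofNat]
  exact hx

/-- Non-equidistribution data in degree four.

There is an open set `U` of real `4 × 4` matrices containing the identity such that:

* (avoidance) for every field `K`, every subring `O` of its ring of integers containing a square
  root `s` of `2`, every four ring homomorphisms `σ j : K → ℝ`, every additive subgroup `I` of `K`
  stable under multiplication by `O`, and every `t`, no `g ∈ U` has `ℤ⁴ g = σ(I) · diag(t)`;
* (orders of large index) in every quartic number field `K` whose ring of integers contains a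
  square root `s` of `2`, for every `N` there is a subring `O` of the ring of integers containing
  `s` whose index in the ring of integers is finite and larger than `N`;
* (such fields exist) there is a totally real quartic number field whose ring of integers contains
  a square root of `2`. -/
theorem result :
    ∃ U : Set (Matrix (Fin 4) (Fin 4) ℝ), IsOpen U ∧ (1 : Matrix (Fin 4) (Fin 4) ℝ) ∈ U ∧
      (∀ (K : Type) [Field K] (O : Subring (𝓞 K)) (s : 𝓞 K), s ∈ O → s * s = 2 →
        ∀ (σ : Fin 4 → (K →+* ℝ)) (I : AddSubgroup K),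
          (∀ x ∈ O, ∀ y ∈ I, (x : K) * y ∈ I) →
          ∀ (t : Fin 4 → ℝ), ∀ g ∈ U, rowLattice g ≠ embLattice σ I t) ∧
      (∀ (K : Type) [Field K] [NumberField K], Module.finrank ℚ K = 4 →
        ∀ s : 𝓞 K, s * s = 2 →
          ∀ N : ℕ, ∃ O : Subring (𝓞 K), s ∈ O ∧ N < O.toAddSubgroup.index) ∧
      (∃ (K : Type) (_ : Field K) (_ : NumberField K), IsTotallyReal K ∧
        Module.finrank ℚ K = 4 ∧ ∃ s : 𝓞 K, s * s = 2) := by
  refine ⟨nbhd 4 (1 / (4 * (4 : ℕ) * (3 / 2))), nbhd_open _ _, one_mem_nbhd _ _ (by norm_num),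
    ?_, ?_, ?_⟩
  · intro K _ O s hsO hs σ I hI t g hg
    refine avoid (s : K) ?_ σ I (fun y hy => hI s hsO y hy) t g hg
    have h := congrArg (algebraMap (𝓞 K) K) hs
    rw [map_mul, map_ofNat] at h
    exact h
  · intro K _ _ hK s hs N
    exact index_large hK s hs N
  · have : Fact (Irreducible quartic) := ⟨quartic_irreducible⟩
    refine ⟨AdjoinRoot quartic, inferInstance, numberField, totallyReal, finrank_eq, ?_⟩
    have hsq : ((AdjoinRoot.root quartic) ^ 2 - 2) * ((AdjoinRoot.root quartic) ^ 2 - 2)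
        = (2 : AdjoinRoot quartic) := by
      linear_combination theta_eq
    exact exists_int_sqrt _ hsq

end Vale.Agent.Results.P007.QuarticOrders
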