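import Mathlib
import Vale.Agent.Helper7.PacketDefs
import Vale.Agent.Helper7.PacketMain
import Vale.Agent.Results.P007.QuarticOrders

/-!
# P007: torus packets of quartic orders containing `√2` do not equidistribute

`X₄` is realised as `SL₄(ℝ) / SL₄(ℤ)` (the coset `g SL₄(ℤ)` being the lattice `ℤ⁴ g⁻¹`), with the
quotient topology, the Borel σ-algebra and the action of `SL₄(ℝ)` by left multiplication.

There is a continuous, compactly supported, nonnegative test function `f` on `X₄` such that

* `f` vanishes at every point of every torus packet of every order containing a square root of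
  `2`; hence `∫ f dμ = 0` for every Borel measure `μ` carried by such points;
* `∫ f dm > 0` for every `SL₄(ℝ)`-invariant Borel probability measure `m` on `X₄`;
* there is a totally real quartic field whose ring of integers contains a square root `s` of `2`
  and, for every `N`, a subring containing `s` of finite index larger than `N`.
-/

namespace Vale.Agent.Results.P007.NoEquidistribution

open MeasureTheory NumberField
open Vale.Agent.Helper7.PacketDefs Vale.Agent.Helper7.PacketMain
open Vale.Agent.Results.P007.QuarticOrders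

theorem result :
    ∃ f : X4 → ℝ, Continuous f ∧ HasCompactSupport f ∧ (∀ x, 0 ≤ f x) ∧
      (∀ x, SqrtTwoPacketPoint x → f x = 0) ∧
      (∀ μ : Measure X4, (∀ᵐ x ∂μ, SqrtTwoPacketPoint x) → ∫ x, f x ∂μ = 0) ∧
      (∀ m : Measure X4, IsProbabilityMeasure m →
        (∀ (g : Matrix.SpecialLinearGroup (Fin 4) ℝ) (E : Set X4), MeasurableSet E →
          m ((fun x : X4 => g • x) ⁻¹' E) = m E) →
        0 < ∫ x, f x ∂m) ∧
      (∃ (K : Type) (_ : Field K) (_ : NumberField K), IsTotallyReal K ∧
        Module.finrank ℚ K = 4 ∧ ∃ s : 𝓞 K, s * s = 2 ∧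
          ∀ N : ℕ, ∃ O : Subring (𝓞 K), s ∈ O ∧ N < O.toAddSubgroup.index) := by
  obtain ⟨f, hf, hc, h0, hbad, h1⟩ := exists_test
  have hpt : ∀ x, SqrtTwoPacketPoint x → f x = 0 := by
    rintro x ⟨K, _, O, s, σ, I, t, hsO, hs, hI, hx⟩
    apply hbad
    refine packet_mem_bad (s : K) ?_ σ I (fun y hy => hI s hsO y hy) t x hx
    have h := congrArg (algebraMap (𝓞 K) K) hs
    rw [map_mul, map_ofNat] at h
    exact h
  refine ⟨f, hf, hc, h0, hpt, ?_, ?_, ?_⟩
  · intro μ hμ
    apply integral_eq_zero_of_ae
    filter_upwards [hμ] with x hx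
    exact hpt x hx
  · intro m hm hinv
    exact integral_pos_of f hf hc h0 _ (by rw [h1]; exact one_pos) m hinv
  · have : Fact (Irreducible quartic) := ⟨quartic_irreducible⟩
    have hnf : NumberField (AdjoinRoot quartic) := numberField
    have hsq : ((AdjoinRoot.root quartic) ^ 2 - 2) * ((AdjoinRoot.root quartic) ^ 2 - 2)
        = (2 : AdjoinRoot quartic) := by
      linear_combination theta_eq
    obtain ⟨s, hs⟩ := exists_int_sqrt _ hsq
    exact ⟨AdjoinRoot quartic, inferInstance, hnf, totallyReal, finrank_eq, s, hs,
      fun N => index_large finrank_eq s hs N⟩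

end Vale.Agent.Results.P007.NoEquidistribution
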