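import Mathlib
import Vale.Agent.Results.P007.QuarticOrders

/-!
# Torus packets in degree four: the subfield obstruction, stated in Mathlib terms only

This is the statement of `P007.QuarticOrders` with its two definitions written out: the
lattice `ℤ^4 g` of a real 4×4 matrix `g` is the `ℤ`-span of the rows of `g`, and the lattice
`σ(I) diag(t)` is the set of all vectors `(σ_1(x) t_1, ..., σ_4(x) t_4)` with `x ∈ I`.

There is an open set `U` of real 4×4 matrices containing the identity such that

* (a) for every field `K`, every subring `O` of its ring of integers containing an element `s`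
  with `s * s = 2`, every four ring homomorphisms `σ_1, ..., σ_4 : K → ℝ`, every additive
  subgroup `I` of `K` with `O I ⊆ I` and every `t ∈ ℝ^4`: no `g ∈ U` has
  `ℤ^4 g = σ(I) diag(t)`;
* (b) in every number field `K` of degree 4 with `s` in its ring of integers, `s * s = 2`,
  for every `N` there is a subring `O` of the ring of integers containing `s` whose index is
  finite and greater than `N` (the index is `0` when infinite);
* (c) there is a totally real number field of degree 4 whose ring of integers contains a
  square root of 2.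
-/

namespace Vale.Agent.Results.P007.QuarticOrdersPlain

open NumberField

theorem result :
    ∃ U : Set (Matrix (Fin 4) (Fin 4) ℝ), IsOpen U ∧ (1 : Matrix (Fin 4) (Fin 4) ℝ) ∈ U ∧
      (∀ (K : Type) [Field K] (O : Subring (𝓞 K)) (s : 𝓞 K), s ∈ O → s * s = 2 →
        ∀ (σ : Fin 4 → (K →+* ℝ)) (I : AddSubgroup K),
          (∀ x ∈ O, ∀ y ∈ I, (x : K) * y ∈ I) →
          ∀ (t : Fin 4 → ℝ), ∀ g ∈ U,
            (Submodule.span ℤ (Set.range fun k : Fin 4 => g k) : Set (Fin 4 → ℝ)) ≠
              {v : Fin 4 → ℝ | ∃ x ∈ I, ∀ j, v j = σ j x * t j}) ∧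
      (∀ (K : Type) [Field K] [NumberField K], Module.finrank ℚ K = 4 →
        ∀ s : 𝓞 K, s * s = 2 →
          ∀ N : ℕ, ∃ O : Subring (𝓞 K), s ∈ O ∧ N < O.toAddSubgroup.index) ∧
      (∃ (K : Type) (_ : Field K) (_ : NumberField K), IsTotallyReal K ∧
        Module.finrank ℚ K = 4 ∧ ∃ s : 𝓞 K, s * s = 2) :=
  Vale.Agent.Results.P007.QuarticOrders.result

end Vale.Agent.Results.P007.QuarticOrdersPlain
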